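import Vale.Agent.P097.H699.Schottky

/-!
# Normality: Harnack, Montel, families omitting two values, punctured form
-/

open Complex Metric Set Filter Topology

namespace Vale.Agent.P097.H699

/-- Borel-Caratheodory at an arbitrary centre, for functions of bounded real part. -/
theorem borel {u : ℂ → ℂ} {c : ℂ} {R M : ℝ} (hM : 0 < M)
    (hu : DifferentiableOn ℂ u (ball c R)) (hre : ∀ z ∈ ball c R, (u z - u c).re ≤ M)
    {z : ℂ} (hz : z ∈ ball c R) : ‖u z - u c‖ ≤ 2 * M * ‖z - c‖ / (R - ‖z - c‖) := by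
  have hR : 0 < R := pos_of_mem_ball hz
  have hmaps : MapsTo (fun w : ℂ => w + c) (ball 0 R) (ball c R) := by
    intro w hw
    simpa [dist_eq_norm] using hw
  have hd : DifferentiableOn ℂ (fun w => u (w + c) - u c) (ball 0 R) :=
    (hu.comp (differentiableOn_id.add_const c) hmaps).sub (differentiableOn_const _)
  have hz' : z - c ∈ ball (0 : ℂ) R := by simpa [dist_eq_norm] using hz
  have := Complex.borelCaratheodory_zero (f := fun w => u (w + c) - u c) hM hd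
    (fun w hw => hre _ (hmaps hw)) hR hz' (by simp)
  simpa using this

/-- Harnack inequality for holomorphic functions of positive real part. -/
theorem harnack {u : ℂ → ℂ} {c : ℂ} {R : ℝ} (hu : DifferentiableOn ℂ u (ball c R))
    (hpos : ∀ z ∈ ball c R, 0 < (u z).re) {z : ℂ} (hz : ‖z - c‖ ≤ R / 4) (hR : 0 < R) :
    (u c).re ≤ 2 * (u z).re ∧ (u z).re ≤ 2 * (u c).re := by
  have hzc : z ∈ ball c R := by rw [mem_ball, dist_eq_norm]; linarith
  have hcc : c ∈ ball c R := mem_ball_self hR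
  constructor
  · -- centre z
    have hsub : ball z (3 * R / 4) ⊆ ball c R := by
      intro y hy
      rw [mem_ball, dist_eq_norm] at hy ⊢
      have : ‖y - c‖ ≤ ‖y - z‖ + ‖z - c‖ := norm_sub_le_norm_sub_add_norm_sub y z c
      linarith
    have hcz : c ∈ ball z (3 * R / 4) := by
      rw [mem_ball, dist_eq_norm, norm_sub_rev]; linarith
    have hb := borel (u := fun y => -u y) (hpos z hzc) (hu.mono hsub).neg
      (fun y hy => by simp; linarith [hpos y (hsub hy)]) hcz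
    have h1 : ‖c - z‖ ≤ R / 4 := by rw [norm_sub_rev]; exact hz
    have h2 : 2 * (u z).re * ‖c - z‖ / (3 * R / 4 - ‖c - z‖) ≤ (u z).re := by
      rw [div_le_iff₀ (by linarith)]
      have := hpos z hzc
      nlinarith
    have h3 : (u c).re - (u z).re ≤ ‖-u c - -u z‖ := by
      have := Complex.re_le_norm (-(-u c - -u z))
      rw [norm_neg] at this
      refine le_trans (le_of_eq ?_) this
      simp only [neg_re, sub_re]
      ring
    linarith
  · have hb := borel (u := fun y => -u y) (hpos c hcc) hu.neg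
      (fun y hy => by simp; linarith [hpos y hy]) hzc
    have h2 : 2 * (u c).re * ‖z - c‖ / (R - ‖z - c‖) ≤ (u c).re := by
      rw [div_le_iff₀ (by linarith)]
      have := hpos c hcc
      nlinarith
    have h3 : (u z).re - (u c).re ≤ ‖-u z - -u c‖ := by
      have := Complex.re_le_norm (-(-u z - -u c))
      rw [norm_neg] at this
      refine le_trans (le_of_eq ?_) this
      simp only [neg_re, sub_re]
      ring
    linarith

/-- Small values propagate: `f` omits `0` and `1` and `‖f c‖ ≤ 1`, then near `c` the modulus of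
`f` is at most a constant times the square root of `‖f c‖`. -/
theorem schottky_small {f : ℂ → ℂ} {c : ℂ} {R : ℝ}
    (hf : DifferentiableOn ℂ f (ball c R)) (h0 : ∀ z ∈ ball c R, f z ≠ 0)
    (h1 : ∀ z ∈ ball c R, f z ≠ 1) (hR : 0 < R) (hc : ‖f c‖ ≤ 1)
    {z : ℂ} (hz : ‖z - c‖ ≤ R / 8) : ‖f z‖ ^ 2 ≤ 2 * SB 1 (1 / 2) * ‖f c‖ := by
  have hR2 : R / 2 < R := by linarith
  set M := SB 1 (1 / 2) with hM
  have hM1 : 1 ≤ M := one_le_SB _ _
  have hb : ∀ y ∈ ball c (R / 2), ‖f y‖ ≤ M := by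
    intro y hy
    have := schottky hf h0 h1 hR2 hc (ball_subset_closedBall hy)
    rwa [show R / 2 / R = 1 / 2 by field_simp] at this
  have hsub : ball c (R / 2) ⊆ ball c R := ball_subset_ball hR2.le
  have hcb : c ∈ ball c (R / 2) := mem_ball_self (by linarith)
  obtain ⟨l, hl, -, hlf⟩ := exists_log (a := Complex.log (f c)) (by linarith : 0 < R / 2)
    (hf.mono hsub) (fun z hz => h0 z (hsub hz)) (Complex.exp_log (h0 c (hsub hcb)))
  have hre : ∀ y ∈ ball c (R / 2), (l y).re = Real.log ‖f y‖ := by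
    intro y hy
    rw [← hlf y hy, Complex.norm_exp, Real.log_exp]
  have hpos : ∀ y ∈ ball c (R / 2), 0 < ((fun y => (Real.log (2 * M) : ℂ) - l y) y).re := by
    intro y hy
    have h2 : 0 < ‖f y‖ := norm_pos_iff.mpr (h0 y (hsub hy))
    simp only [sub_re, ofReal_re]
    rw [hre y hy]
    have : Real.log ‖f y‖ < Real.log (2 * M) := Real.log_lt_log h2 (by linarith [hb y hy])
    linarith
  have hz4 : ‖z - c‖ ≤ R / 2 / 4 := by linarith
  have hzb : z ∈ ball c (R / 2) := by rw [mem_ball, dist_eq_norm]; linarith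
  have hH := (harnack (u := fun y => (Real.log (2 * M) : ℂ) - l y)
    ((differentiableOn_const _).sub hl) hpos hz4 (by linarith)).1
  simp only [sub_re, ofReal_re] at hH
  rw [hre z hzb, hre c hcb] at hH
  have h3 : 0 < ‖f z‖ := norm_pos_iff.mpr (h0 z (hsub hzb))
  have h4 : 0 < ‖f c‖ := norm_pos_iff.mpr (h0 c (hsub hcb))
  have h5 : Real.log (‖f z‖ ^ 2) ≤ Real.log (2 * M * ‖f c‖) := by
    rw [Real.log_pow, Real.log_mul (by positivity) h4.ne']
    push_cast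
    linarith
  exact (Real.log_le_log_iff (by positivity) (by positivity)).mp h5

/-- Propagation along a preconnected subset of an open set. -/
theorem preconn_ind {U S : Set ℂ} (hU : IsOpen U) (hS : IsPreconnected S) (hSU : S ⊆ U)
    {P : ℂ → Prop}
    (hstep : ∀ z ∈ U, ∀ r > 0, ball z r ⊆ U → P z → ∀ y ∈ ball z (r / 8), P y)
    {z₀ : ℂ} (hz₀ : z₀ ∈ S) (h0 : P z₀) : ∀ z ∈ S, P z := by
  have hA : IsOpen {z | z ∈ U ∧ P z} := by
    rw [Metric.isOpen_iff]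
    rintro z ⟨hz, hP⟩
    obtain ⟨r, hr, hsub⟩ := Metric.isOpen_iff.mp hU z hz
    refine ⟨r / 8, by positivity, fun y hy => ⟨?_, hstep z hz r hr hsub hP y hy⟩⟩
    exact hsub (ball_subset_ball (by linarith) hy)
  have hB : IsOpen {z | z ∈ U ∧ ¬ P z} := by
    rw [Metric.isOpen_iff]
    rintro z ⟨hz, hP⟩
    obtain ⟨r, hr, hsub⟩ := Metric.isOpen_iff.mp hU z hz
    refine ⟨r / 16, by positivity, fun y hy => ⟨?_, ?_⟩⟩
    · exact hsub (ball_subset_ball (by linarith) hy)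
    · intro hPy
      apply hP
      have hyU : y ∈ U := hsub (ball_subset_ball (by linarith) hy)
      have hsub2 : ball y (r / 2) ⊆ U := by
        intro x hx
        apply hsub
        rw [mem_ball] at hx hy ⊢
        have := dist_triangle x y z
        linarith
      apply hstep y hyU (r / 2) (by positivity) hsub2 hPy z
      rw [mem_ball, dist_comm]
      rw [mem_ball] at hy
      linarith
  intro z hz
  by_contra hPz
  obtain ⟨x, -, ⟨-, hx1⟩, -, hx2⟩ := hS _ _ hA hB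
    (fun x hx => by
      by_cases h : P x
      · exact Or.inl ⟨hSU hx, h⟩
      · exact Or.inr ⟨hSU hx, h⟩)
    ⟨z₀, hz₀, hSU hz₀, h0⟩ ⟨z, hz, hSU hz, hPz⟩
  exact hx2 hx1

/-- Holomorphic functions on `U` omitting `0` and `1`. -/
def Om (U : Set ℂ) (f : ℂ → ℂ) : Prop :=
  DifferentiableOn ℂ f U ∧ ∀ z ∈ U, f z ≠ 0 ∧ f z ≠ 1

theorem Om.mono {U V : Set ℂ} (h : V ⊆ U) {f : ℂ → ℂ} (hf : Om U f) : Om V f :=
  ⟨hf.1.mono h, fun z hz => hf.2 z (h hz)⟩

theorem Om.inv {U : Set ℂ} {f : ℂ → ℂ} (hf : Om U f) : Om U (fun z => (f z)⁻¹) :=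
  ⟨hf.1.inv fun z hz => (hf.2 z hz).1, fun z hz =>
    ⟨inv_ne_zero (hf.2 z hz).1, fun h => (hf.2 z hz).2 (inv_eq_one.mp h)⟩⟩

/-- Bounded values propagate, uniformly on compact subsets. -/
theorem Om.bdd {U S K : Set ℂ} (hU : IsOpen U) (hS : IsPreconnected S) (hSU : S ⊆ U)
    (hK : IsCompact K) (hKS : K ⊆ S) {z₀ : ℂ} (hz₀ : z₀ ∈ S) (a : ℝ) :
    ∃ M, ∀ f, Om U f → ‖f z₀‖ ≤ a → ∀ z ∈ K, ‖f z‖ ≤ M := by
  have hstep : ∀ z ∈ U, ∀ r > 0, ball z r ⊆ U → ∀ M, (∀ f, Om U f → ‖f z₀‖ ≤ a → ‖f z‖ ≤ M) →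
      ∀ f, Om U f → ‖f z₀‖ ≤ a → ∀ y ∈ ball z (r / 8), ‖f y‖ ≤ SB M (1 / 8) := by
    intro z hz r hr hsub M hM f hf hfa y hy
    have h1 := hf.mono hsub
    have := schottky h1.1 (fun w hw => (h1.2 w hw).1) (fun w hw => (h1.2 w hw).2)
      (by linarith : r / 8 < r) (hM f hf hfa) (ball_subset_closedBall hy)
    rwa [show r / 8 / r = 1 / 8 by field_simp] at this
  have key : ∀ z ∈ S, ∃ M, ∀ f, Om U f → ‖f z₀‖ ≤ a → ‖f z‖ ≤ M := by
    refine preconn_ind (P := fun z => ∃ M, ∀ f, Om U f → ‖f z₀‖ ≤ a → ‖f z‖ ≤ M)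
      hU hS hSU ?_ hz₀ ⟨a, fun f _ h => h⟩
    rintro z hz r hr hsub ⟨M, hM⟩ y hy
    exact ⟨_, fun f hf hfa => hstep z hz r hr hsub M hM f hf hfa y hy⟩
  refine hK.induction_on (p := fun s => ∃ M, ∀ f, Om U f → ‖f z₀‖ ≤ a → ∀ z ∈ s, ‖f z‖ ≤ M)
    ⟨0, by simp⟩ ?_ ?_ ?_
  · rintro s t hst ⟨M, hM⟩
    exact ⟨M, fun f hf hfa z hz => hM f hf hfa z (hst hz)⟩
  · rintro s t ⟨M, hM⟩ ⟨N, hN⟩
    refine ⟨max M N, fun f hf hfa z hz => ?_⟩
    rcases hz with hz | hz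
    · exact (hM f hf hfa z hz).trans (le_max_left _ _)
    · exact (hN f hf hfa z hz).trans (le_max_right _ _)
  · intro z hz
    obtain ⟨M, hM⟩ := key z (hKS hz)
    obtain ⟨r, hr, hsub⟩ := Metric.isOpen_iff.mp hU z (hSU (hKS hz))
    refine ⟨ball z (r / 8), mem_nhdsWithin_of_mem_nhds (ball_mem_nhds z (by positivity)), _,
      fun f hf hfa y hy => hstep z (hSU (hKS hz)) r hr hsub M hM f hf hfa y hy⟩

/-- Small values propagate, uniformly on compact subsets. -/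
theorem Om.small {U S K : Set ℂ} (hU : IsOpen U) (hS : IsPreconnected S) (hSU : S ⊆ U)
    (hK : IsCompact K) (hKS : K ⊆ S) {z₀ : ℂ} (hz₀ : z₀ ∈ S) {ε : ℝ} (hε : 0 < ε) :
    ∃ δ > 0, ∀ f, Om U f → ‖f z₀‖ ≤ δ → ∀ z ∈ K, ‖f z‖ ≤ ε := by
  have hM1 : 1 ≤ SB 1 (1 / 2) := one_le_SB _ _
  have hstep : ∀ z ∈ U, ∀ r > 0, ball z r ⊆ U →
      (∀ ε > 0, ∃ δ > 0, ∀ f, Om U f → ‖f z₀‖ ≤ δ → ‖f z‖ ≤ ε) →
      ∀ ε > 0, ∃ δ > 0, ∀ f, Om U f → ‖f z₀‖ ≤ δ → ∀ y ∈ ball z (r / 8), ‖f y‖ ≤ ε := by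
    intro z hz r hr hsub h ε hε
    obtain ⟨δ, hδ, hd⟩ := h (min 1 (ε ^ 2 / (2 * SB 1 (1 / 2)))) (by positivity)
    refine ⟨δ, hδ, fun f hf hfa y hy => ?_⟩
    have h1 := hf.mono hsub
    have h2 := hd f hf hfa
    have h3 : ‖y - z‖ ≤ r / 8 := by
      rw [mem_ball, dist_eq_norm] at hy; exact hy.le
    have h4 := schottky_small h1.1 (fun w hw => (h1.2 w hw).1) (fun w hw => (h1.2 w hw).2)
      hr (h2.trans (min_le_left _ _)) h3
    have h5 : 2 * SB 1 (1 / 2) * ‖f z‖ ≤ ε ^ 2 := by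
      have := h2.trans (min_le_right _ _)
      rw [le_div_iff₀ (by positivity)] at this
      linarith
    exact le_of_sq_le_sq (h4.trans h5) hε.le
  have key : ∀ z ∈ S, ∀ ε > 0, ∃ δ > 0, ∀ f, Om U f → ‖f z₀‖ ≤ δ → ‖f z‖ ≤ ε := by
    refine preconn_ind (P := fun z => ∀ ε > 0, ∃ δ > 0, ∀ f, Om U f → ‖f z₀‖ ≤ δ → ‖f z‖ ≤ ε)
      hU hS hSU ?_ hz₀ (fun ε hε => ⟨ε, hε, fun f _ h => h⟩)
    intro z hz r hr hsub h y hy ε hε
    obtain ⟨δ, hδ, hd⟩ := hstep z hz r hr hsub h ε hε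
    exact ⟨δ, hδ, fun f hf hfa => hd f hf hfa y hy⟩
  refine hK.induction_on (p := fun s => ∃ δ > 0, ∀ f, Om U f → ‖f z₀‖ ≤ δ → ∀ z ∈ s, ‖f z‖ ≤ ε)
    ⟨1, one_pos, by simp⟩ ?_ ?_ ?_
  · rintro s t hst ⟨M, hM0, hM⟩
    exact ⟨M, hM0, fun f hf hfa z hz => hM f hf hfa z (hst hz)⟩
  · rintro s t ⟨M, hM0, hM⟩ ⟨N, hN0, hN⟩
    refine ⟨min M N, lt_min hM0 hN0, fun f hf hfa z hz => ?_⟩
    rcases hz with hz | hz
    · exact hM f hf (hfa.trans (min_le_left _ _)) z hz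
    · exact hN f hf (hfa.trans (min_le_right _ _)) z hz
  · intro z hz
    obtain ⟨r, hr, hsub⟩ := Metric.isOpen_iff.mp hU z (hSU (hKS hz))
    obtain ⟨δ, hδ, hd⟩ := hstep z (hSU (hKS hz)) r hr hsub (key z (hKS hz)) ε hε
    exact ⟨ball z (r / 8), mem_nhdsWithin_of_mem_nhds (ball_mem_nhds z (by positivity)), δ, hδ, hd⟩

end Vale.Agent.P097.H699
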