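import Vale.Agent.P097.H699.Bloch

/-!
# Schottky and Landau theorems
-/

open Complex Metric Set Filter Topology

namespace Vale.Agent.P097.H699

/-- Holomorphic logarithm on a disc with a prescribed value at the centre. -/
theorem exists_log {f : ℂ → ℂ} {c : ℂ} {r : ℝ} (hr : 0 < r)
    (hf : DifferentiableOn ℂ f (ball c r)) (h0 : ∀ z ∈ ball c r, f z ≠ 0)
    {a : ℂ} (ha : exp a = f c) :
    ∃ g : ℂ → ℂ, DifferentiableOn ℂ g (ball c r) ∧ g c = a ∧ ∀ z ∈ ball c r, exp (g z) = f z := by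
  have hf' : DifferentiableOn ℂ (deriv f) (ball c r) := hf.deriv isOpen_ball
  have hq : DifferentiableOn ℂ (fun z => deriv f z / f z) (ball c r) := hf'.div hf h0
  obtain ⟨g, hgc, hg⟩ := hq.isExactOn_ball.with_val_at c a
  refine ⟨g, fun z hz => (hg z hz).differentiableAt.differentiableWithinAt, hgc, ?_⟩
  -- the function f * exp (-g) is constant
  have hder : ∀ z ∈ ball c r, HasDerivAt (fun z => f z * exp (-(g z))) 0 z := by
    intro z hz
    have h1 : HasDerivAt f (deriv f z) z :=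
      (hf.differentiableAt (isOpen_ball.mem_nhds hz)).hasDerivAt
    have h2 : HasDerivAt (fun z => exp (-(g z))) (exp (-(g z)) * (-(deriv f z / f z))) z :=
      (hg z hz).neg.cexp
    have h3 := h1.mul h2
    have := h0 z hz
    have h4 : deriv f z * exp (-(g z)) + f z * (exp (-(g z)) * (-(deriv f z / f z))) = 0 := by
      rw [show f z * (exp (-(g z)) * (-(deriv f z / f z))) = -(exp (-(g z)) * deriv f z) by
        field_simp]
      ring
    rw [h4] at h3
    exact h3
  have hconst : ∀ z ∈ ball c r, f z * exp (-(g z)) = f c * exp (-(g c)) := by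
    intro z hz
    exact (convex_ball c r).is_const_of_fderivWithin_eq_zero (𝕜 := ℂ)
      (fun y hy => (hder y hy).differentiableAt.differentiableWithinAt)
      (fun y hy => by
        rw [fderivWithin_of_isOpen isOpen_ball hy]
        have := (hder y hy).hasFDerivAt.fderiv
        rw [this]; ext; simp) hz (mem_ball_self hr)
  intro z hz
  have h4 := hconst z hz
  rw [hgc, ← ha, ← Complex.exp_add, add_neg_cancel, Complex.exp_zero, Complex.exp_neg] at h4
  have h5 : exp (g z) ≠ 0 := exp_ne_zero _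
  field_simp at h4
  exact h4.symm

private theorem inv_eq_of_eq_inv' {x y : ℂ} (h : x * y = 1) : x⁻¹ = y := by
  rw [inv_eq_iff_eq_inv]
  exact eq_inv_of_mul_eq_one_left h

/-- Functions omitting `1` and `-1` on a disc are cosines. -/
theorem exists_cos {f : ℂ → ℂ} {c : ℂ} {r : ℝ} (hr : 0 < r)
    (hf : DifferentiableOn ℂ f (ball c r)) (h1 : ∀ z ∈ ball c r, f z ≠ 1)
    (h2 : ∀ z ∈ ball c r, f z ≠ -1) {a : ℂ} (ha : cos a = f c) :
    ∃ g : ℂ → ℂ, DifferentiableOn ℂ g (ball c r) ∧ g c = a ∧ ∀ z ∈ ball c r, cos (g z) = f z := by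
  have hc := mem_ball_self hr (x := c)
  have hd1 : DifferentiableOn ℂ (fun z => 1 - f z ^ 2) (ball c r) :=
    (differentiableOn_const _).sub (hf.pow 2)
  have hd2 : ∀ z ∈ ball c r, 1 - f z ^ 2 ≠ 0 := by
    intro z hz h
    have : (f z - 1) * (f z + 1) = 0 := by linear_combination -h
    rcases mul_eq_zero.mp this with h | h
    · exact h1 z hz (sub_eq_zero.mp h)
    · exact h2 z hz (eq_neg_of_add_eq_zero_left h)
  have hsin : sin a ≠ 0 := by
    intro h
    have := Complex.sin_sq_add_cos_sq a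
    apply hd2 c hc
    rw [← ha]; rw [h] at this; linear_combination -this
  obtain ⟨l, hl, hlc, hlf⟩ := exists_log hr hd1 hd2 (a := 2 * log (sin a)) (by
    rw [two_mul, Complex.exp_add, Complex.exp_log hsin, ← ha]
    linear_combination Complex.sin_sq_add_cos_sq a)
  -- s = sqrt (1 - f^2)
  set s : ℂ → ℂ := fun z => exp (l z / 2) with hs
  have hsd : DifferentiableOn ℂ s (ball c r) := (hl.div_const 2).cexp
  have hss : ∀ z ∈ ball c r, s z ^ 2 = 1 - f z ^ 2 := by
    intro z hz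
    rw [← hlf z hz, hs]; simp only; rw [← Complex.exp_nat_mul]; congr 1; push_cast; ring
  have hsc : s c = sin a := by
    rw [hs]; simp only; rw [hlc, mul_div_cancel_left₀ _ two_ne_zero, Complex.exp_log hsin]
  have hmul : ∀ z ∈ ball c r, (f z + s z * I) * (f z - s z * I) = 1 := by
    intro z hz
    have := hss z hz
    linear_combination this - s z ^ 2 * Complex.I_sq
  have hne : ∀ z ∈ ball c r, f z + s z * I ≠ 0 := by
    intro z hz h
    have := hmul z hz
    rw [h, zero_mul] at this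
    exact zero_ne_one this
  obtain ⟨F, hF, hFc, hFf⟩ := exists_log hr (hf.add (hsd.mul_const I)) hne (a := a * I) (by
    show exp (a * I) = f c + s c * I
    rw [Complex.exp_mul_I, hsc, ← ha])
  refine ⟨fun z => -I * F z, hF.const_mul _, ?_, ?_⟩
  · show -I * F c = a
    rw [hFc]; linear_combination -a * Complex.I_sq
  · intro z hz
    have e1 : exp (F z) = f z + s z * I := hFf z hz
    have e2 : exp (-(F z)) = f z - s z * I := by
      rw [Complex.exp_neg, e1]
      exact inv_eq_of_eq_inv' (hmul z hz)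
    show cos (-I * F z) = f z
    rw [Complex.cos, show -I * F z * I = F z by linear_combination -F z * Complex.I_sq,
      show -(-I * F z) * I = -(F z) by linear_combination F z * Complex.I_sq, e1, e2]
    ring

/-- Every unit disc contains a grid point `m + i y`, `m` an integer, `cosh (π y)` an integer. -/
theorem exists_grid (z₀ : ℂ) : ∃ (m : ℤ) (n : ℕ) (y : ℝ),
    Real.cosh (Real.pi * y) = n ∧ ((m : ℂ) + y * I) ∈ ball z₀ 1 := by
  have key : ∀ y₀ : ℝ, 0 ≤ y₀ → ∃ (n : ℕ) (y : ℝ), Real.cosh (Real.pi * y) = n ∧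
      |y - y₀| ≤ 1 / 2 := by
    intro y₀ hy₀
    rcases le_or_gt y₀ (1 / 2) with h | h
    · refine ⟨1, 0, by simp, ?_⟩
      rw [abs_le]; constructor <;> linarith
    · have hc : Real.cosh (Real.pi * (y₀ - 1 / 2)) + 1 ≤ Real.cosh (Real.pi * y₀) := by
        have e1 : Real.pi * y₀ = Real.pi * (y₀ - 1 / 2) + 2 * (Real.pi / 4) := by ring
        have h1 : 1 ≤ Real.cosh (Real.pi * (y₀ - 1 / 2)) := Real.one_le_cosh _
        have h2 : 0 ≤ Real.sinh (Real.pi * (y₀ - 1 / 2)) := by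
          rw [Real.sinh_nonneg_iff]
          have := Real.pi_pos
          nlinarith
        have h3 : 0 ≤ Real.sinh (2 * (Real.pi / 4)) := by
          rw [Real.sinh_nonneg_iff]; have := Real.pi_pos; linarith
        have h4 : Real.pi / 4 ≤ Real.sinh (Real.pi / 4) := by
          rw [Real.self_le_sinh_iff]; have := Real.pi_pos; linarith
        have h5 : (2 : ℝ) ≤ Real.cosh (2 * (Real.pi / 4)) := by
          rw [Real.cosh_two_mul, Real.cosh_sq]
          have := Real.pi_gt_three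
          nlinarith
        rw [e1, Real.cosh_add]
        nlinarith [mul_nonneg h2 h3]
      set n : ℕ := ⌈Real.cosh (Real.pi * (y₀ - 1 / 2))⌉₊ with hn
      have hn1 : Real.cosh (Real.pi * (y₀ - 1 / 2)) ≤ n := Nat.le_ceil _
      have hn2 : (n : ℝ) ≤ Real.cosh (Real.pi * y₀) := by
        have := Nat.ceil_lt_add_one (R := ℝ) (a := Real.cosh (Real.pi * (y₀ - 1 / 2)))
          (Real.cosh_pos _).le
        rw [← hn] at this
        linarith
      have hcont : ContinuousOn (fun y : ℝ => Real.cosh (Real.pi * y)) (Icc (y₀ - 1 / 2) y₀) := by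
        fun_prop
      obtain ⟨y, hy, hyn⟩ := intermediate_value_Icc (by linarith) hcont ⟨hn1, hn2⟩
      refine ⟨n, y, hyn, ?_⟩
      rw [abs_le]; constructor <;> linarith [hy.1, hy.2]
  have hm : |z₀.re - round z₀.re| ≤ 1 / 2 := abs_sub_round z₀.re
  obtain ⟨n, y, hy, hyd⟩ := key |z₀.im| (abs_nonneg _)
  -- sign
  obtain ⟨y', hy', hyd'⟩ : ∃ y' : ℝ, Real.cosh (Real.pi * y') = n ∧ |y' - z₀.im| ≤ 1 / 2 := by
    rcases le_total 0 z₀.im with h | h
    · rw [abs_of_nonneg h] at hyd; exact ⟨y, hy, hyd⟩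
    · rw [abs_of_nonpos h] at hyd
      refine ⟨-y, by rw [mul_neg, Real.cosh_neg]; exact hy, ?_⟩
      rw [show -y - z₀.im = -(y - -z₀.im) by ring, abs_neg]; exact hyd
  refine ⟨round z₀.re, n, y', hy', ?_⟩
  rw [mem_ball, dist_eq_norm, ← sq_lt_one_iff₀ (norm_nonneg _), ← Complex.normSq_eq_norm_sq,
    Complex.normSq_apply]
  have e1 : ((round z₀.re : ℂ) + y' * I - z₀).re = round z₀.re - z₀.re := by simp
  have e2 : ((round z₀.re : ℂ) + y' * I - z₀).im = y' - z₀.im := by simp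
  rw [e1, e2]
  have h1 := abs_le.mp hm
  have h2 := abs_le.mp hyd'
  nlinarith [h1.1, h1.2, h2.1, h2.2]

/-- The König representation has no unit disc in its image. -/
theorem no_unit_disc {f F g : ℂ → ℂ} {c : ℂ} {r : ℝ}
    (h0 : ∀ z ∈ ball c r, f z ≠ 0) (h1 : ∀ z ∈ ball c r, f z ≠ 1)
    (hF : ∀ z ∈ ball c r, cos (Real.pi * F z) = 2 * f z - 1)
    (hg : ∀ z ∈ ball c r, cos (Real.pi * g z) = F z) (z₀ : ℂ) :
    ¬ ball z₀ 1 ⊆ g '' ball c r := by
  intro hsub
  obtain ⟨m, n, y, hy, hmem⟩ := exists_grid z₀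
  obtain ⟨z, hz, hgz⟩ := hsub hmem
  have hcos : ∀ k : ℤ, cos ((k : ℂ) * Real.pi) ^ 2 = 1 := by
    intro k
    have := Complex.sin_sq_add_cos_sq ((k : ℂ) * Real.pi)
    rw [Complex.sin_int_mul_pi] at this
    linear_combination this
  -- F z is an integer
  have hFz : ∃ k : ℤ, F z = k := by
    have e1 : F z = cos ((m : ℂ) * Real.pi) * n := by
      rw [← hg z hz, hgz, show (Real.pi : ℂ) * ((m : ℂ) + y * I) = (m : ℂ) * Real.pi +
        ((Real.pi * y : ℝ) : ℂ) * I by push_cast; ring, Complex.cos_add, Complex.sin_int_mul_pi,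
        Complex.cos_mul_I, ← Complex.ofReal_cosh, hy]
      simp
    have h2 := hcos m
    have h3 : (cos ((m : ℂ) * Real.pi) - 1) * (cos ((m : ℂ) * Real.pi) + 1) = 0 := by
      linear_combination h2
    rcases mul_eq_zero.mp h3 with h | h
    · refine ⟨n, ?_⟩
      rw [e1, sub_eq_zero.mp h]; simp
    · refine ⟨-n, ?_⟩
      rw [e1, eq_neg_of_add_eq_zero_left h]; simp
  obtain ⟨k, hk⟩ := hFz
  have h4 := hcos k
  rw [← hk, mul_comm, hF z hz] at h4
  have h5 : f z * (f z - 1) = 0 := by linear_combination h4 / 4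
  rcases mul_eq_zero.mp h5 with h | h
  · exact h0 z hz h
  · exact h1 z hz (sub_eq_zero.mp h)

theorem norm_cos_le_exp (z : ℂ) : ‖cos z‖ ≤ Real.exp ‖z‖ := by
  rw [Complex.cos]
  have h1 : ‖exp (z * I)‖ ≤ Real.exp ‖z‖ := by
    refine (Complex.norm_exp_le_exp_norm _).trans ?_
    simp
  have h2 : ‖exp (-z * I)‖ ≤ Real.exp ‖z‖ := by
    refine (Complex.norm_exp_le_exp_norm _).trans ?_
    simp
  rw [norm_div]
  have h3 := norm_add_le (exp (z * I)) (exp (-z * I))
  have h4 : ‖(2 : ℂ)‖ = 2 := by simp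
  rw [h4, div_le_iff₀ (by norm_num)]
  linarith

theorem abs_im_le_norm_cos (z : ℂ) : |z.im| ≤ ‖cos z‖ := by
  have h1 : ‖exp (z * I)‖ = Real.exp (-z.im) := by rw [Complex.norm_exp]; simp
  have h2 : ‖exp (-z * I)‖ = Real.exp z.im := by rw [Complex.norm_exp]; simp
  have h3 : |‖exp (z * I)‖ - ‖exp (-z * I)‖| ≤ ‖exp (z * I) + exp (-z * I)‖ := by
    have := abs_norm_sub_norm_le (exp (z * I)) (-exp (-z * I))
    rwa [norm_neg, sub_neg_eq_add] at this
  have h4 : ‖cos z‖ = ‖exp (z * I) + exp (-z * I)‖ / 2 := by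
    rw [Complex.cos, norm_div]; simp
  have h5 : |z.im| ≤ |Real.sinh z.im| := by
    rw [Real.abs_sinh]
    rw [Real.self_le_sinh_iff]
    exact abs_nonneg _
  have h6 : |Real.sinh z.im| = |‖exp (z * I)‖ - ‖exp (-z * I)‖| / 2 := by
    rw [h1, h2, Real.sinh_eq, abs_div, abs_sub_comm]; simp
  rw [h4]
  linarith

/-- Controlled preimages under the cosine. -/
theorem exists_cos_eq (z : ℂ) : ∃ a, cos a = z ∧ ‖a‖ ≤ Real.pi + ‖z‖ := by
  obtain ⟨b, hb⟩ := Complex.cos_surjective z
  set k : ℤ := round (b.re / (2 * Real.pi)) with hk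
  refine ⟨b - k * (2 * Real.pi), ?_, ?_⟩
  · rw [Complex.cos_sub_int_mul_two_pi]; exact hb
  · set a : ℂ := b - k * (2 * Real.pi) with ha
    have hcos : cos a = z := by rw [ha, Complex.cos_sub_int_mul_two_pi]; exact hb
    have hre : |a.re| ≤ Real.pi := by
      have e : a.re = (b.re / (2 * Real.pi) - k) * (2 * Real.pi) := by
        rw [ha]; simp; field_simp
      have h1 : |b.re / (2 * Real.pi) - k| ≤ 1 / 2 := abs_sub_round _
      rw [e, abs_mul, abs_of_pos (by positivity : (0 : ℝ) < 2 * Real.pi)]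
      nlinarith [Real.pi_pos]
    have him : |a.im| ≤ ‖z‖ := by rw [← hcos]; exact abs_im_le_norm_cos a
    exact (Complex.norm_le_abs_re_add_abs_im a).trans (by linarith)

/-- The Schottky bound. -/
noncomputable def SB (a t : ℝ) : ℝ :=
  Real.exp (Real.pi * Real.exp (Real.pi * (2 * a + 3 + 96 * (t / (1 - t)))))

theorem SB_pos (a t : ℝ) : 0 < SB a t := Real.exp_pos _

theorem one_le_SB (a t : ℝ) : 1 ≤ SB a t := by
  rw [SB, Real.one_le_exp_iff]
  have := Real.pi_pos
  positivity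

theorem SB_mono {a a' t t' : ℝ} (ha : a ≤ a') (ht : t ≤ t') (ht' : t' < 1) :
    SB a t ≤ SB a' t' := by
  have h1 : t / (1 - t) ≤ t' / (1 - t') := by
    rw [div_le_div_iff₀ (by linarith) (by linarith)]; nlinarith
  unfold SB
  apply Real.exp_le_exp.mpr
  apply mul_le_mul_of_nonneg_left _ Real.pi_pos.le
  apply Real.exp_le_exp.mpr
  apply mul_le_mul_of_nonneg_left _ Real.pi_pos.le
  linarith

/-- **Schottky theorem**. -/
theorem schottky {f : ℂ → ℂ} {c : ℂ} {R ρ a : ℝ}
    (hf : DifferentiableOn ℂ f (ball c R)) (h0 : ∀ z ∈ ball c R, f z ≠ 0)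
    (h1 : ∀ z ∈ ball c R, f z ≠ 1) (hρR : ρ < R) (ha : ‖f c‖ ≤ a)
    {z : ℂ} (hz : z ∈ closedBall c ρ) : ‖f z‖ ≤ SB a (ρ / R) := by
  have hρ : 0 ≤ ρ := dist_nonneg.trans (mem_closedBall.mp hz)
  have hR : 0 < R := by linarith
  have hpi := Real.pi_pos
  have hpi3 := Real.pi_gt_three
  have hpiC : (Real.pi : ℂ) ≠ 0 := by exact_mod_cast hpi.ne'
  have hcb : c ∈ ball c R := mem_ball_self hR
  -- first cosine
  obtain ⟨A, hA, hAn⟩ := exists_cos_eq (2 * f c - 1)
  have hd1 : DifferentiableOn ℂ (fun z => 2 * f z - 1) (ball c R) :=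
    (hf.const_mul 2).sub (differentiableOn_const _)
  obtain ⟨G, hG, hGc, hGf⟩ := exists_cos hR hd1
    (fun z hz h => h1 z hz (by linear_combination h / 2))
    (fun z hz h => h0 z hz (by linear_combination h / 2)) hA
  set F : ℂ → ℂ := fun z => G z / Real.pi with hFdef
  have hF : DifferentiableOn ℂ F (ball c R) := hG.div_const _
  have hFf : ∀ z ∈ ball c R, cos (Real.pi * F z) = 2 * f z - 1 := by
    intro z hz
    rw [hFdef]; simp only; rw [mul_div_cancel₀ _ hpiC]; exact hGf z hz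
  have hF1 : ∀ z ∈ ball c R, F z ≠ 1 := by
    intro z hz h
    have h2 := hFf z hz
    rw [h, mul_one, Complex.cos_pi] at h2
    exact h0 z hz (by linear_combination -h2 / 2)
  have hF2 : ∀ z ∈ ball c R, F z ≠ -1 := by
    intro z hz h
    have h2 := hFf z hz
    rw [h, mul_neg, mul_one, Complex.cos_neg, Complex.cos_pi] at h2
    exact h0 z hz (by linear_combination -h2 / 2)
  -- second cosine
  obtain ⟨B, hB, hBn⟩ := exists_cos_eq (F c)
  obtain ⟨H, hH, hHc, hHf⟩ := exists_cos hR hF hF1 hF2 hB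
  set g : ℂ → ℂ := fun z => H z / Real.pi with hgdef
  have hg : DifferentiableOn ℂ g (ball c R) := hH.div_const _
  have hgf : ∀ z ∈ ball c R, cos (Real.pi * g z) = F z := by
    intro z hz
    rw [hgdef]; simp only; rw [mul_div_cancel₀ _ hpiC]; exact hHf z hz
  -- size at the centre
  have hpin : ‖(Real.pi : ℂ)‖ = Real.pi := by simp [abs_of_pos hpi]
  have hFc : ‖F c‖ ≤ 2 * a + 2 := by
    have h2 : ‖2 * f c - 1‖ ≤ 2 * a + 1 := by
      calc ‖2 * f c - 1‖ ≤ ‖2 * f c‖ + ‖(1 : ℂ)‖ := norm_sub_le _ _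
        _ = 2 * ‖f c‖ + 1 := by simp
        _ ≤ _ := by linarith
    rw [hFdef]; simp only; rw [hGc, norm_div, hpin, div_le_iff₀ hpi]
    have ha0 : 0 ≤ a := (norm_nonneg _).trans ha
    nlinarith
  have hgc : ‖g c‖ ≤ 2 * a + 3 := by
    have ha0 : 0 ≤ a := (norm_nonneg _).trans ha
    rw [hgdef]; simp only; rw [hHc, norm_div, hpin, div_le_iff₀ hpi]
    nlinarith
  -- growth
  have hgz : ‖g z‖ ≤ 2 * a + 3 + 96 * (ρ / R / (1 - ρ / R)) := by
    have hsub : closedBall c ρ ⊆ ball c R := closedBall_subset_ball hρR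
    have hbd : ∀ y ∈ closedBall c ρ, ‖deriv g y‖ ≤ 96 / (R - ρ) := by
      intro y hy
      refine (norm_deriv_le_of_no_unit_disc hg (no_unit_disc h0 h1 hFf hgf) (hsub hy)).trans ?_
      have : ‖y - c‖ ≤ ρ := by simpa [dist_eq_norm] using hy
      apply div_le_div_of_nonneg_left (by norm_num) (by linarith) (by linarith)
    have h3 := (convex_closedBall c ρ).norm_image_sub_le_of_norm_deriv_le (𝕜 := ℂ)
      (fun y hy => hg.differentiableAt (isOpen_ball.mem_nhds (hsub hy))) hbd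
      (mem_closedBall_self hρ) hz
    have h4 : ‖z - c‖ ≤ ρ := by simpa [dist_eq_norm] using hz
    have h5 : 96 / (R - ρ) * ‖z - c‖ ≤ 96 / (R - ρ) * ρ := by
      apply mul_le_mul_of_nonneg_left h4
      have : 0 < R - ρ := by linarith
      positivity
    have h6 : 96 / (R - ρ) * ρ = 96 * (ρ / R / (1 - ρ / R)) := by
      have : R - ρ ≠ 0 := by linarith
      field_simp
    have h7 : ‖g z‖ ≤ ‖g z - g c‖ + ‖g c‖ := by
      have := norm_add_le (g z - g c) (g c)
      rwa [sub_add_cancel] at this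
    linarith
  have hzR : z ∈ ball c R := closedBall_subset_ball hρR hz
  have hFz : ‖F z‖ ≤ Real.exp (Real.pi * (2 * a + 3 + 96 * (ρ / R / (1 - ρ / R)))) := by
    rw [← hgf z hzR]
    refine (norm_cos_le_exp _).trans (Real.exp_le_exp.mpr ?_)
    rw [norm_mul, hpin]
    exact mul_le_mul_of_nonneg_left hgz hpi.le
  have hfz : ‖f z‖ ≤ Real.exp (Real.pi * ‖F z‖) := by
    have h8 : f z = (1 + cos (Real.pi * F z)) / 2 := by rw [hFf z hzR]; ring
    have h9 : ‖cos (Real.pi * F z)‖ ≤ Real.exp (Real.pi * ‖F z‖) := by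
      refine (norm_cos_le_exp _).trans (Real.exp_le_exp.mpr ?_)
      rw [norm_mul, hpin]
    have h10 : 1 ≤ Real.exp (Real.pi * ‖F z‖) := by
      rw [Real.one_le_exp_iff]; positivity
    rw [h8, norm_div]
    have h11 : ‖1 + cos (Real.pi * F z)‖ ≤ 1 + ‖cos (Real.pi * F z)‖ := by
      refine (norm_add_le _ _).trans (by simp)
    have h12 : ‖(2 : ℂ)‖ = 2 := by simp
    rw [h12, div_le_iff₀ (by norm_num)]
    linarith
  refine hfz.trans ?_
  unfold SB
  apply Real.exp_le_exp.mpr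
  exact mul_le_mul_of_nonneg_left hFz hpi.le

/-- **Landau theorem**. -/
theorem landau {f : ℂ → ℂ} {c : ℂ} {R a : ℝ} (hR : 0 < R)
    (hf : DifferentiableOn ℂ f (ball c R)) (h0 : ∀ z ∈ ball c R, f z ≠ 0)
    (h1 : ∀ z ∈ ball c R, f z ≠ 1) (ha : ‖f c‖ ≤ a) :
    ‖deriv f c‖ ≤ 2 * SB a (1 / 2) / R := by
  have hR2 : R / 2 < R := by linarith
  have hd : DiffContOnCl ℂ f (ball c (R / 2)) :=
    (hf.mono (closedBall_subset_ball hR2)).diffContOnCl_ball Subset.rfl
  have hb : ∀ z ∈ sphere c (R / 2), ‖f z‖ ≤ SB a (1 / 2) := by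
    intro z hz
    have := schottky hf h0 h1 hR2 ha (sphere_subset_closedBall hz)
    rwa [show R / 2 / R = 1 / 2 by field_simp] at this
  have := Complex.norm_deriv_le_of_forall_mem_sphere_norm_le (by positivity) hd hb
  refine this.trans (le_of_eq ?_)
  field_simp

end Vale.Agent.P097.H699
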