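import Mathlib

/-!
# Bloch, Landau and Schottky theorems (explicit, non sharp constants)
-/

open Complex Metric Set Filter Topology

namespace Vale.Agent.P097.H699

/-- Quantitative inverse function: bounded derivative on a disc. -/
theorem ball_subset_of_deriv_le {f : ℂ → ℂ} {c : ℂ} {r : ℝ} (hr : 0 < r)
    (hf : DifferentiableOn ℂ f (ball c r)) (h0 : deriv f c ≠ 0)
    (hb : ∀ z ∈ ball c r, ‖deriv f z‖ ≤ 2 * ‖deriv f c‖) :
    ball (f c) (‖deriv f c‖ * r / 24) ⊆ f '' ball c r := by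
  have hd : 0 < ‖deriv f c‖ := norm_pos_iff.mpr h0
  have hf' : DifferentiableOn ℂ (deriv f) (ball c r) := hf.deriv isOpen_ball
  -- Schwarz for the derivative
  have hmaps : MapsTo (deriv f) (ball c r) (closedBall (deriv f c) (3 * ‖deriv f c‖)) := by
    intro z hz
    rw [mem_closedBall, dist_eq_norm]
    calc ‖deriv f z - deriv f c‖ ≤ ‖deriv f z‖ + ‖deriv f c‖ := norm_sub_le _ _
      _ ≤ 3 * ‖deriv f c‖ := by linarith [hb z hz]
  have hS : ∀ z ∈ ball c r, ‖deriv f z - deriv f c‖ ≤ 3 * ‖deriv f c‖ / r * ‖z - c‖ := by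
    intro z hz
    have := dist_le_div_mul_dist_of_mapsTo_ball hf' hmaps hz
    simpa [dist_eq_norm] using this
  -- Taylor estimate
  have hT : ∀ ρ : ℝ, 0 < ρ → ρ < r → ∀ z ∈ closedBall c ρ,
      ‖f z - f c - deriv f c * (z - c)‖ ≤ 3 * ‖deriv f c‖ / r * ρ * ρ := by
    intro ρ hρ hρr z hz
    have hsub : closedBall c ρ ⊆ ball c r := closedBall_subset_ball hρr
    have hder : ∀ y ∈ closedBall c ρ,
        HasDerivWithinAt (fun y => f y - deriv f c * (y - c)) (deriv f y - deriv f c)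
          (closedBall c ρ) y := by
      intro y hy
      have h1 : HasDerivAt f (deriv f y) y :=
        (hf.differentiableAt (isOpen_ball.mem_nhds (hsub hy))).hasDerivAt
      have h2 : HasDerivAt (fun y : ℂ => deriv f c * (y - c)) (deriv f c) y := by
        simpa using ((hasDerivAt_id y).sub_const c).const_mul (deriv f c)
      exact (h1.sub h2).hasDerivWithinAt
    have hbd : ∀ y ∈ closedBall c ρ, ‖deriv f y - deriv f c‖ ≤ 3 * ‖deriv f c‖ / r * ρ := by
      intro y hy
      refine (hS y (hsub hy)).trans ?_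
      have : ‖y - c‖ ≤ ρ := by simpa [dist_eq_norm] using hy
      have h3 : 0 ≤ 3 * ‖deriv f c‖ / r := by positivity
      exact mul_le_mul_of_nonneg_left this h3
    have := (convex_closedBall c ρ).norm_image_sub_le_of_norm_hasDerivWithin_le hder hbd
      (mem_closedBall_self hρ.le) hz
    have h4 : ‖z - c‖ ≤ ρ := by simpa [dist_eq_norm] using hz
    calc ‖f z - f c - deriv f c * (z - c)‖
        = ‖(f z - deriv f c * (z - c)) - (f c - deriv f c * (c - c))‖ := by
          congr 1; ring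
      _ ≤ 3 * ‖deriv f c‖ / r * ρ * ‖z - c‖ := this
      _ ≤ 3 * ‖deriv f c‖ / r * ρ * ρ := by
          have : 0 ≤ 3 * ‖deriv f c‖ / r * ρ := by positivity
          exact mul_le_mul_of_nonneg_left h4 this
  set ρ : ℝ := r / 6 with hρdef
  have hρ : 0 < ρ := by positivity
  have hρr : ρ < r := by rw [hρdef]; linarith
  have hdc : DiffContOnCl ℂ f (ball c ρ) :=
    (hf.mono (closedBall_subset_ball hρr)).diffContOnCl_ball Subset.rfl
  have hlow : ∀ z ∈ sphere c ρ, ‖deriv f c‖ * r / 12 ≤ ‖f z - f c‖ := by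
    intro z hz
    have h1 := hT ρ hρ hρr z (sphere_subset_closedBall hz)
    have h2 : ‖z - c‖ = ρ := by simpa [dist_eq_norm] using hz
    have h3 : ‖deriv f c * (z - c)‖ = ‖deriv f c‖ * ρ := by rw [norm_mul, h2]
    have h4 : ‖deriv f c * (z - c)‖ ≤ ‖f z - f c‖ + ‖f z - f c - deriv f c * (z - c)‖ := by
      calc ‖deriv f c * (z - c)‖ = ‖(f z - f c) - (f z - f c - deriv f c * (z - c))‖ := by
            congr 1; ring
        _ ≤ _ := norm_sub_le _ _
    have h5 : 3 * ‖deriv f c‖ / r * ρ * ρ = ‖deriv f c‖ * r / 12 := by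
      rw [hρdef]; field_simp; ring
    have h6 : ‖deriv f c‖ * ρ = ‖deriv f c‖ * r / 6 := by rw [hρdef]; ring
    rw [h3, h6] at h4
    rw [h5] at h1
    linarith
  have hfreq : ∃ᶠ z in 𝓝 c, f z ≠ f c := by
    have hda : HasDerivAt f (deriv f c) c :=
      (hf.differentiableAt (isOpen_ball.mem_nhds (mem_ball_self hr))).hasDerivAt
    have := hda.eventually_ne h0 (c := f c)
    exact (this.frequently).filter_mono nhdsWithin_le_nhds
  have := hdc.ball_subset_image_closedBall hρ hlow hfreq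
  have h7 : ‖deriv f c‖ * r / 12 / 2 = ‖deriv f c‖ * r / 24 := by ring
  rw [h7] at this
  exact this.trans (image_mono (closedBall_subset_ball hρr))

/-- **Bloch theorem**: the image of a disc of radius `R` contains a disc of radius
`R * |f'(c)| / 96`. -/
theorem bloch {f : ℂ → ℂ} {c : ℂ} {R : ℝ} (hR : 0 < R)
    (hf : DifferentiableOn ℂ f (ball c R)) (h0 : deriv f c ≠ 0) :
    ∃ z₀, ball z₀ (R * ‖deriv f c‖ / 96) ⊆ f '' ball c R := by
  have hd : 0 < ‖deriv f c‖ := norm_pos_iff.mpr h0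
  have hf' : DifferentiableOn ℂ (deriv f) (ball c R) := hf.deriv isOpen_ball
  have hRR : R / 2 < R := by linarith
  have hcont : ContinuousOn (fun z => ‖deriv f z‖ * (R / 2 - ‖z - c‖)) (closedBall c (R / 2)) := by
    apply ContinuousOn.mul
    · exact (hf'.continuousOn.mono (closedBall_subset_ball hRR)).norm
    · fun_prop
  obtain ⟨p, hp, hmax⟩ := (isCompact_closedBall c (R / 2)).exists_isMaxOn
    ⟨c, mem_closedBall_self (by positivity)⟩ hcont
  have hM : ‖deriv f c‖ * (R / 2) ≤ ‖deriv f p‖ * (R / 2 - ‖p - c‖) := by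
    have := hmax (mem_closedBall_self (by positivity) : c ∈ closedBall c (R / 2))
    simpa using this
  have hpc : ‖p - c‖ ≤ R / 2 := by simpa [dist_eq_norm] using hp
  have hMpos : 0 < ‖deriv f p‖ * (R / 2 - ‖p - c‖) := lt_of_lt_of_le (by positivity) hM
  have hpos1 : 0 < R / 2 - ‖p - c‖ := by
    rcases hpc.lt_or_eq with h | h
    · linarith
    · rw [h] at hMpos; simp at hMpos
  have hpos2 : 0 < ‖deriv f p‖ := by
    by_contra hcon
    have : ‖deriv f p‖ = 0 := le_antisymm (not_lt.mp hcon) (norm_nonneg _)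
    rw [this] at hMpos; simp at hMpos
  set t : ℝ := (R / 2 - ‖p - c‖) / 2 with ht
  have htpos : 0 < t := by positivity
  have hsub : ball p t ⊆ ball c R := by
    intro z hz
    rw [mem_ball, dist_eq_norm] at hz ⊢
    have : ‖z - c‖ ≤ ‖z - p‖ + ‖p - c‖ := norm_sub_le_norm_sub_add_norm_sub z p c
    rw [ht] at hz
    linarith
  have hb : ∀ z ∈ ball p t, ‖deriv f z‖ ≤ 2 * ‖deriv f p‖ := by
    intro z hz
    rw [mem_ball, dist_eq_norm] at hz
    have h1 : ‖z - c‖ ≤ ‖z - p‖ + ‖p - c‖ := norm_sub_le_norm_sub_add_norm_sub z p c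
    have h2 : z ∈ closedBall c (R / 2) := by
      rw [mem_closedBall, dist_eq_norm]; rw [ht] at hz; linarith
    have h3 : ‖deriv f z‖ * (R / 2 - ‖z - c‖) ≤ ‖deriv f p‖ * (R / 2 - ‖p - c‖) := hmax h2
    have h4 : t ≤ R / 2 - ‖z - c‖ := by rw [ht] at hz ⊢; linarith
    have h5 : R / 2 - ‖p - c‖ = 2 * t := by rw [ht]; ring
    rw [h5] at h3
    have h6 : ‖deriv f z‖ * t ≤ ‖deriv f z‖ * (R / 2 - ‖z - c‖) :=
      mul_le_mul_of_nonneg_left h4 (norm_nonneg _)
    have h7 : ‖deriv f z‖ * t ≤ (2 * ‖deriv f p‖) * t := by linarith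
    exact le_of_mul_le_mul_right h7 htpos
  have hmain := ball_subset_of_deriv_le htpos (hf.mono hsub) (norm_pos_iff.mp hpos2) hb
  refine ⟨f p, ?_⟩
  refine (ball_subset_ball ?_).trans (hmain.trans (image_mono hsub))
  have h8 : ‖deriv f c‖ * (R / 2) ≤ ‖deriv f p‖ * (2 * t) := by
    have : R / 2 - ‖p - c‖ = 2 * t := by rw [ht]; ring
    rw [this] at hM; exact hM
  nlinarith

/-- If the image contains no disc of radius `1` then the derivative is bounded. -/
theorem norm_deriv_le_of_no_unit_disc {f : ℂ → ℂ} {c : ℂ} {R : ℝ}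
    (hf : DifferentiableOn ℂ f (ball c R))
    (hno : ∀ z₀, ¬ ball z₀ 1 ⊆ f '' ball c R) {z : ℂ} (hz : z ∈ ball c R) :
    ‖deriv f z‖ ≤ 96 / (R - ‖z - c‖) := by
  rw [mem_ball, dist_eq_norm] at hz
  have hpos : 0 < R - ‖z - c‖ := by linarith
  rcases eq_or_ne (deriv f z) 0 with h0 | h0
  · rw [h0, norm_zero]; positivity
  have hsub : ball z (R - ‖z - c‖) ⊆ ball c R := by
    intro y hy
    rw [mem_ball, dist_eq_norm] at hy ⊢
    have : ‖y - c‖ ≤ ‖y - z‖ + ‖z - c‖ := norm_sub_le_norm_sub_add_norm_sub y z c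
    linarith
  obtain ⟨z₀, hz₀⟩ := bloch hpos (hf.mono hsub) h0
  by_contra hcon
  rw [not_le, div_lt_iff₀ hpos] at hcon
  refine hno z₀ ((ball_subset_ball ?_).trans (hz₀.trans (image_mono hsub)))
  have : (96 : ℝ) < (R - ‖z - c‖) * ‖deriv f z‖ := by linarith
  linarith

end Vale.Agent.P097.H699
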