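import Vale.Agent.P097.H699.Punct

/-!
# Montel theorem (sequences) and the fundamental normality test
-/

open Complex Metric Set Filter Topology

namespace Vale.Agent.P097.H699

/-- **Montel theorem**: a sequence of holomorphic functions on an open set, uniformly bounded on
compact subsets, has a subsequence converging locally uniformly to a holomorphic function. -/
theorem montel {U : Set ℂ} (hU : IsOpen U) {f : ℕ → ℂ → ℂ}
    (hf : ∀ n, DifferentiableOn ℂ (f n) U)
    (hb : ∀ K ⊆ U, IsCompact K → ∃ M, ∀ n, ∀ z ∈ K, ‖f n z‖ ≤ M) :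
    ∃ φ : ℕ → ℕ, StrictMono φ ∧ ∃ g : ℂ → ℂ, DifferentiableOn ℂ g U ∧
      TendstoLocallyUniformlyOn (fun n => f (φ n)) g atTop U := by
  classical
  -- radii and bounds
  have hr : ∀ x : U, ∃ r > 0, closedBall (x : ℂ) r ⊆ U := fun x =>
    Metric.nhds_basis_closedBall.mem_iff.mp (hU.mem_nhds x.2)
  choose r hr0 hrU using hr
  have hM : ∀ x : U, ∃ M, ∀ n, ∀ z ∈ closedBall (x : ℂ) (r x), ‖f n z‖ ≤ M := fun x =>
    hb _ (hrU x) (isCompact_closedBall _ _)
  choose M hM' using hM
  have : LocallyCompactSpace U := hU.locallyCompactSpace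
  -- the compact set of admissible functions
  set S : Set C(U, ℂ) := {F | ∀ x : U, ‖F x‖ ≤ M x ∧
    ∀ y : U, dist (y : ℂ) x < r x → dist (F y) (F x) ≤ 2 * M x / r x * dist (y : ℂ) x} with hS
  set T : Set (U → ℂ) := {F | ∀ x : U, ‖F x‖ ≤ M x ∧
    ∀ y : U, dist (y : ℂ) x < r x → dist (F y) (F x) ≤ 2 * M x / r x * dist (y : ℂ) x} with hT
  have hTcont : ∀ F ∈ T, Continuous F := by
    intro F hF
    rw [continuous_iff_continuousAt]
    intro x
    have h1 : Tendsto (fun y : U => 2 * M x / r x * dist (y : ℂ) x) (𝓝 x) (𝓝 0) := by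
      have : Continuous (fun y : U => 2 * M x / r x * dist (y : ℂ) x) := by fun_prop
      have h2 := this.tendsto x
      simpa using h2
    rw [ContinuousAt, tendsto_iff_dist_tendsto_zero]
    refine squeeze_zero' (Eventually.of_forall fun _ => dist_nonneg) ?_ h1
    have h3 : ∀ᶠ y : U in 𝓝 x, dist (y : ℂ) x < r x := by
      have : Continuous (fun y : U => dist (y : ℂ) x) := by fun_prop
      exact this.continuousAt.eventually_lt continuousAt_const (by simpa using hr0 x)
    filter_upwards [h3] with y hy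
    exact (hF x).2 y hy
  have hTS : (fun F : C(U, ℂ) => (F : U → ℂ)) '' S = T := by
    ext F
    constructor
    · rintro ⟨G, hG, rfl⟩; exact hG
    · intro hF
      exact ⟨⟨F, hTcont F hF⟩, hF, rfl⟩
  have hTclosed : IsClosed T := by
    rw [hT, ofPred_forall]
    refine isClosed_iInter fun x => ?_
    rw [ofPred_and]
    refine IsClosed.inter ?_ ?_
    · exact isClosed_le (continuous_apply x).norm continuous_const
    · rw [ofPred_forall]
      refine isClosed_iInter fun y => ?_
      by_cases h : dist (y : ℂ) x < r x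
      · simp only [h, true_imp_iff]
        exact isClosed_le ((continuous_apply y).dist (continuous_apply x)) continuous_const
      · simp [h]
  have hTcomp : IsCompact T := by
    refine IsCompact.of_isClosed_subset
      (isCompact_univ_pi (fun x : U => isCompact_closedBall (0 : ℂ) (M x))) hTclosed ?_
    intro F hF x _
    rw [mem_closedBall_zero_iff]
    exact (hF x).1
  have hSeq : Equicontinuous (fun F : S => ((F : C(U, ℂ)) : U → ℂ)) := by
    intro x
    rw [Metric.equicontinuousAt_iff]
    intro ε hε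
    have hMx : 0 ≤ 2 * M x / r x ∨ 2 * M x / r x < 0 := le_or_gt _ _
    refine ⟨min (r x) (ε / (|2 * M x / r x| + 1)), by have := hr0 x; positivity, ?_⟩
    intro y hy F
    have hy1 : dist (y : ℂ) x < r x := by
      have := lt_of_lt_of_le hy (min_le_left _ _); exact this
    have hy2 : dist (y : ℂ) x < ε / (|2 * M x / r x| + 1) := lt_of_lt_of_le hy (min_le_right _ _)
    have h1 := (F.2 x).2 y hy1
    rw [dist_comm]
    rw [lt_div_iff₀ (by positivity)] at hy2
    have h2 : 2 * M x / r x * dist (y : ℂ) x ≤ |2 * M x / r x| * dist (y : ℂ) x :=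
      mul_le_mul_of_nonneg_right (le_abs_self _) dist_nonneg
    have h3 : 0 ≤ dist (y : ℂ) x := dist_nonneg
    calc dist ((F : C(U, ℂ)) y) ((F : C(U, ℂ)) x) ≤ 2 * M x / r x * dist (y : ℂ) x := h1
      _ ≤ |2 * M x / r x| * dist (y : ℂ) x := h2
      _ ≤ dist (y : ℂ) x * (|2 * M x / r x| + 1) := by nlinarith
      _ < ε := hy2
  have hScomp : IsCompact S := by
    apply ArzelaAscoli.isCompact_of_equicontinuous S _ hSeq
    have : ContinuousMap.toFun '' S = T := hTS
    rw [this]; exact hTcomp
  -- the sequence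
  set F : ℕ → C(U, ℂ) := fun n => ⟨fun x => f n x, (hf n).continuousOn.domRestrict⟩ with hF
  have hFS : ∀ n, F n ∈ S := by
    intro n x
    refine ⟨hM' x n x (mem_closedBall_self (hr0 x).le), fun y hy => ?_⟩
    have hmaps : MapsTo (f n) (ball (x : ℂ) (r x)) (closedBall (f n x) (2 * M x)) := by
      intro z hz
      rw [mem_closedBall, dist_eq_norm]
      calc ‖f n z - f n x‖ ≤ ‖f n z‖ + ‖f n x‖ := norm_sub_le _ _
        _ ≤ 2 * M x := by
          have h1 := hM' x n z (ball_subset_closedBall hz)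
          have h2 := hM' x n x (mem_closedBall_self (hr0 x).le)
          linarith
    exact dist_le_div_mul_dist_of_mapsTo_ball
      ((hf n).mono (ball_subset_closedBall.trans (hrU x))) hmaps hy
  obtain ⟨G, -, φ, hφ, hlim⟩ := hScomp.tendsto_subseq hFS
  rw [ContinuousMap.tendsto_iff_tendstoLocallyUniformly] at hlim
  set g : ℂ → ℂ := fun z => if h : z ∈ U then G ⟨z, h⟩ else 0 with hg
  have hlim' : TendstoLocallyUniformlyOn (fun n => f (φ n)) g atTop U := by
    rw [tendstoLocallyUniformlyOn_iff_tendstoLocallyUniformly_comp_coe]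
    have e : g ∘ ((↑) : U → ℂ) = G := by
      funext x
      simp only [Function.comp, hg]
      rw [dif_pos x.2]
    rw [e]
    exact hlim
  exact ⟨φ, hφ, g, hlim'.differentiableOn (Eventually.of_forall fun n => hf _) hU, hlim'⟩

/-- **Fundamental normality test**: a sequence of holomorphic functions on a connected open set
omitting `0` and `1` has a subsequence that converges locally uniformly to a holomorphic
function, or whose inverses converge locally uniformly to `0`. -/
theorem normality_test {U : Set ℂ} (hU : IsOpen U) (hc : IsPreconnected U) {f : ℕ → ℂ → ℂ}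
    (hf : ∀ n, Om U (f n)) :
    (∃ φ : ℕ → ℕ, StrictMono φ ∧ ∃ g : ℂ → ℂ, DifferentiableOn ℂ g U ∧
      TendstoLocallyUniformlyOn (fun n => f (φ n)) g atTop U) ∨
    (∃ φ : ℕ → ℕ, StrictMono φ ∧
      TendstoLocallyUniformlyOn (fun n z => (f (φ n) z)⁻¹) (fun _ => 0) atTop U) := by
  rcases U.eq_empty_or_nonempty with rfl | ⟨z₀, hz₀⟩
  · left
    exact ⟨id, strictMono_id, 0, differentiableOn_empty, by
      intro u _ x hx; exact absurd hx (notMem_empty x)⟩
  by_cases hbdd : ∃ a, ∃ᶠ n in atTop, ‖f n z₀‖ ≤ a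
  · left
    obtain ⟨a, ha⟩ := hbdd
    obtain ⟨ψ, hψ, hψa⟩ := Filter.extraction_of_frequently_atTop ha
    obtain ⟨φ, hφ, g, hg, hlim⟩ := montel hU (f := fun n => f (ψ n)) (fun n => (hf _).1)
      (fun K hK hKc => by
        obtain ⟨M, hM⟩ := Om.bdd hU hc Subset.rfl hKc hK hz₀ a
        exact ⟨M, fun n z hz => hM _ (hf _) (hψa n) z hz⟩)
    exact ⟨ψ ∘ φ, hψ.comp hφ, g, hg, hlim⟩
  · right
    push Not at hbdd
    refine ⟨id, strictMono_id, ?_⟩
    rw [tendstoLocallyUniformlyOn_iff_forall_isCompact hU]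
    intro K hK hKc
    rw [Metric.tendstoUniformlyOn_iff]
    intro ε hε
    obtain ⟨δ, hδ, hd⟩ := Om.small hU hc Subset.rfl hKc hK hz₀ (half_pos hε)
    filter_upwards [hbdd δ⁻¹] with n hn z hz
    have h1 : ‖(f n z₀)⁻¹‖ ≤ δ := by
      rw [norm_inv]
      exact inv_le_of_inv_le₀ hδ hn.le
    have h2 := hd _ (hf n).inv h1 z hz
    rw [dist_zero_left]
    exact lt_of_le_of_lt h2 (by linarith)

end Vale.Agent.P097.H699
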