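import Vale.Agent.P097.H699.Normal

/-!
# Little Picard theorem and functions on a disc that omit `0` and are `1` only at the centre
-/

open Complex Metric Set Filter Topology

namespace Vale.Agent.P097.H699

/-- Landau theorem for functions omitting `1` and `-1`. -/
theorem landau_pm {f : ℂ → ℂ} {c : ℂ} {R : ℝ} (hR : 0 < R)
    (hf : DifferentiableOn ℂ f (ball c R)) (h0 : ∀ z ∈ ball c R, f z ≠ 1)
    (h1 : ∀ z ∈ ball c R, f z ≠ -1) {a : ℝ} (ha : ‖f c‖ ≤ a) :
    ‖deriv f c‖ ≤ 4 * SB (a + 1) (1 / 2) / R := by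
  have hd : DifferentiableOn ℂ (fun z => (f z + 1) / 2) (ball c R) :=
    (hf.add_const 1).div_const 2
  have hc := mem_ball_self hR (x := c)
  have := landau (f := fun z => (f z + 1) / 2) (a := a + 1) hR hd
    (fun z hz h => h1 z hz (by linear_combination 2 * h))
    (fun z hz h => h0 z hz (by linear_combination 2 * h))
    (by
      rw [norm_div]
      have h2 : ‖f c + 1‖ ≤ a + 1 := (norm_add_le _ _).trans (by simpa using ha)
      have h3 : ‖(2 : ℂ)‖ = 2 := by simp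
      have h4 : 0 ≤ ‖f c + 1‖ := norm_nonneg _
      rw [h3]; linarith)
  have hder : deriv (fun z => (f z + 1) / 2) c = deriv f c / 2 := by
    have h1 : HasDerivAt f (deriv f c) c :=
      (hf.differentiableAt (isOpen_ball.mem_nhds hc)).hasDerivAt
    exact ((h1.add_const 1).div_const 2).deriv
  rw [hder, norm_div] at this
  have h3 : ‖(2 : ℂ)‖ = 2 := by simp
  rw [h3, div_le_iff₀ (by norm_num)] at this
  refine this.trans (le_of_eq (by ring))

/-- **Little Picard theorem** (values `0` and `1`). -/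
theorem picard {f : ℂ → ℂ} (hf : Differentiable ℂ f) (h0 : ∀ z, f z ≠ 0) (h1 : ∀ z, f z ≠ 1) :
    ∀ z w, f z = f w := by
  have hder : ∀ z, deriv f z = 0 := by
    intro z
    rw [← norm_eq_zero]
    apply le_antisymm _ (norm_nonneg _)
    apply le_of_forall_pos_le_add
    intro ε hε
    have hC : 0 < 2 * SB ‖f z‖ (1 / 2) := by have := SB_pos ‖f z‖ (1 / 2); positivity
    have := landau (R := 2 * SB ‖f z‖ (1 / 2) / ε) (by positivity)
      (hf.differentiableOn (s := ball z _)) (fun z _ => h0 z) (fun z _ => h1 z) le_rfl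
    refine this.trans (le_of_eq ?_)
    have h2 : SB ‖f z‖ (1 / 2) ≠ 0 := (SB_pos _ _).ne'
    field_simp
    ring
  exact fun z w => is_const_of_deriv_eq_zero hf hder z w

/-- Little Picard theorem for two arbitrary distinct omitted values. -/
theorem picard' {f : ℂ → ℂ} (hf : Differentiable ℂ f) {a b : ℂ} (hab : a ≠ b)
    (ha : ∀ z, f z ≠ a) (hb : ∀ z, f z ≠ b) : ∀ z w, f z = f w := by
  have hba : b - a ≠ 0 := sub_ne_zero.mpr hab.symm
  have := picard (f := fun z => (f z - a) / (b - a)) ((hf.sub_const a).div_const _)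
    (fun z => div_ne_zero (sub_ne_zero.mpr (ha z)) hba)
    (fun z h => hb z (by
      rw [div_eq_one_iff_eq hba] at h
      linear_combination h))
  intro z w
  have h := this z w
  rw [div_left_inj' hba] at h
  linear_combination h

/-- Class of functions on the disc `|w| < r` that omit `0` and are `1` exactly at the centre. -/
def Pc (r : ℝ) (F : ℂ → ℂ) : Prop :=
  DifferentiableOn ℂ F (ball 0 r) ∧ F 0 = 1 ∧ (∀ z ∈ ball (0 : ℂ) r, F z ≠ 0) ∧
    ∀ z ∈ ball (0 : ℂ) r, F z = 1 → z = 0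

theorem Pc.inv {r : ℝ} {F : ℂ → ℂ} (h : Pc r F) : Pc r (fun z => (F z)⁻¹) := by
  obtain ⟨h1, h2, h3, h4⟩ := h
  refine ⟨h1.inv h3, by simp [h2], fun z hz => inv_ne_zero (h3 z hz), fun z hz h => ?_⟩
  exact h4 z hz (inv_eq_one.mp h)

theorem Pc.om {F : ℂ → ℂ} (h : Pc 1 F) : Om (ball (0 : ℂ) 1 \ {0}) F :=
  ⟨h.1.mono sdiff_subset, fun z hz => ⟨h.2.2.1 z hz.1, fun hz1 => hz.2 (h.2.2.2 z hz.1 hz1)⟩⟩

theorem Pc.scale {r : ℝ} (hr : 0 < r) {F : ℂ → ℂ} (h : Pc r F) :
    Pc 1 (fun z => F (r * z)) := by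
  have hmaps : MapsTo (fun z : ℂ => (r : ℂ) * z) (ball 0 1) (ball 0 r) := by
    intro z hz
    rw [mem_ball_zero_iff] at hz ⊢
    rw [norm_mul, Complex.norm_real, Real.norm_eq_abs, abs_of_pos hr]
    nlinarith
  obtain ⟨h1, h2, h3, h4⟩ := h
  refine ⟨h1.comp (by fun_prop) hmaps, by simp [h2], fun z hz => h3 _ (hmaps hz), ?_⟩
  intro z hz hz1
  have := h4 _ (hmaps hz) hz1
  rcases mul_eq_zero.mp this with h | h
  · exact absurd (by exact_mod_cast h) hr.ne'
  · exact h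

theorem rank_gt : 1 < Module.rank ℝ ℂ := by
  rw [Complex.rank_real_complex]
  exact Nat.one_lt_ofNat

/-- Uniform upper bound on `|w| ≤ 1/2` for the class `Pc 1`. -/
theorem Pc.exists_bound_one : ∃ M : ℝ, 1 ≤ M ∧ ∀ F, Pc 1 F → ∀ z ∈ closedBall (0 : ℂ) (1 / 2),
    ‖F z‖ ≤ M := by
  set S : Set ℂ := sphere 0 (1 / 2) with hS
  have hU : IsOpen (ball (0 : ℂ) 1 \ {0}) := isOpen_ball.sdiff isClosed_singleton
  have hSU : S ⊆ ball (0 : ℂ) 1 \ {0} := by
    intro z hz
    rw [hS, mem_sphere_zero_iff_norm] at hz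
    refine ⟨by rw [mem_ball_zero_iff, hz]; norm_num, ?_⟩
    rintro rfl
    simp at hz
  have hSc : IsPreconnected S := isPreconnected_sphere rank_gt 0 (1 / 2)
  have hSk : IsCompact S := isCompact_sphere 0 (1 / 2)
  have hz₀ : (1 / 2 : ℂ) ∈ S := by
    rw [hS, mem_sphere_zero_iff_norm]; simp
  obtain ⟨δ, hδ, hsmall⟩ := Om.small hU hSc hSU hSk Subset.rfl hz₀ (show (0 : ℝ) < 1 / 2 by norm_num)
  obtain ⟨M, hM⟩ := Om.bdd hU hSc hSU hSk Subset.rfl hz₀ δ⁻¹
  refine ⟨max M 1, le_max_right _ _, fun F hF z hz => ?_⟩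
  -- maximum principle on the half disc
  have hmax : ∀ G : ℂ → ℂ, DifferentiableOn ℂ G (ball 0 1) → ∀ C : ℝ,
      (∀ z ∈ S, ‖G z‖ ≤ C) → ∀ z ∈ closedBall (0 : ℂ) (1 / 2), ‖G z‖ ≤ C := by
    intro G hG C hC z hz
    have hd : DiffContOnCl ℂ G (ball 0 (1 / 2)) :=
      (hG.mono (closedBall_subset_ball (by norm_num))).diffContOnCl_ball Subset.rfl
    refine Complex.norm_le_of_forall_mem_frontier_norm_le isBounded_ball hd ?_ ?_
    · intro y hy
      rw [frontier_ball (0 : ℂ) (by norm_num)] at hy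
      exact hC y hy
    · rw [closure_ball (0 : ℂ) (by norm_num)]; exact hz
  have hcase : ‖F (1 / 2)‖ ≤ δ⁻¹ := by
    by_contra hcon
    rw [not_le] at hcon
    have h1 : ‖(F (1 / 2))⁻¹‖ ≤ δ := by
      rw [norm_inv]
      exact inv_le_of_inv_le₀ hδ hcon.le
    have h2 := hsmall _ hF.inv.om h1
    have h3 := hmax _ hF.inv.1 _ h2 0 (mem_closedBall_self (by norm_num))
    simp only [hF.2.1, inv_one, norm_one] at h3
    norm_num at h3
  exact (hmax F hF.1 M (hM F hF.om hcase) z hz).trans (le_max_left _ _)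

/-- Absolute constant for the class `Pc`. -/
noncomputable def CP : ℝ := Classical.choose Pc.exists_bound_one

theorem one_le_CP : 1 ≤ CP := (Classical.choose_spec Pc.exists_bound_one).1

theorem Pc.norm_le {r : ℝ} (hr : 0 < r) {F : ℂ → ℂ} (h : Pc r F) {z : ℂ} (hz : ‖z‖ ≤ r / 2) :
    ‖F z‖ ≤ CP := by
  have hr' : (r : ℂ) ≠ 0 := by exact_mod_cast hr.ne'
  have := (Classical.choose_spec Pc.exists_bound_one).2 _ (h.scale hr) (z / r) (by
    rw [mem_closedBall_zero_iff, norm_div, Complex.norm_real, Real.norm_eq_abs, abs_of_pos hr,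
      div_le_iff₀ hr]
    linarith)
  simp only [mul_div_cancel₀ _ hr'] at this
  exact this

theorem Pc.le_norm {r : ℝ} (hr : 0 < r) {F : ℂ → ℂ} (h : Pc r F) {z : ℂ} (hz : ‖z‖ ≤ r / 2) :
    CP⁻¹ ≤ ‖F z‖ := by
  have h1 := h.inv.norm_le hr hz
  simp only [norm_inv] at h1
  have h2 : 0 < ‖F z‖ := norm_pos_iff.mpr (h.2.2.1 z (by
    rw [mem_ball_zero_iff]; linarith))
  exact inv_le_of_inv_le₀ h2 h1

/-- The logarithm of a function of class `Pc` is bounded on `|w| ≤ r / 4`. -/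
theorem Pc.exists_log {r : ℝ} (hr : 0 < r) {F : ℂ → ℂ} (h : Pc r F) :
    ∃ L : ℂ → ℂ, DifferentiableOn ℂ L (ball 0 r) ∧ L 0 = 0 ∧
      (∀ z ∈ ball (0 : ℂ) r, exp (L z) = F z) ∧ (∀ z ∈ ball (0 : ℂ) r, L z = 0 → z = 0) ∧
      ∀ z : ℂ, ‖z‖ ≤ r / 4 → ‖L z‖ ≤ 2 * (Real.log CP + 1) := by
  obtain ⟨L, hL, hL0, hLF⟩ := H699.exists_log hr h.1 h.2.2.1 (a := 0) (by rw [exp_zero, h.2.1])
  refine ⟨L, hL, hL0, hLF, fun z hz h0 => h.2.2.2 z hz (by rw [← hLF z hz, h0, exp_zero]), ?_⟩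
  intro z hz
  have hlog : 0 ≤ Real.log CP := Real.log_nonneg one_le_CP
  have hzb : z ∈ ball (0 : ℂ) (r / 2) := by rw [mem_ball_zero_iff]; linarith
  have hb := borel (u := L) (c := 0) (R := r / 2) (M := Real.log CP + 1) (by linarith)
    (hL.mono (ball_subset_ball (by linarith))) (fun y hy => by
      rw [hL0, sub_zero]
      have hy' : ‖y‖ < r / 2 := by simpa using hy
      have h1 := h.norm_le hr hy'.le
      rw [← hLF y (by rw [mem_ball_zero_iff]; linarith), Complex.norm_exp] at h1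
      have := (Real.le_log_iff_exp_le (by linarith [one_le_CP])).mpr h1
      linarith) hzb
  rw [hL0, sub_zero, sub_zero] at hb
  refine hb.trans ?_
  rw [div_le_iff₀ (by linarith)]
  nlinarith

/-- Absolute constant for half angles. -/
noncomputable def CD : ℝ := Real.pi * (2 * SB 1 (1 / 2) + 1)

theorem CD_pos : 0 < CD := by
  unfold CD
  have := SB_pos 1 (1 / 2)
  have := Real.pi_pos
  positivity

/-- Half angle functions: `sin (δ w) = 0` only at `w = 0`, `δ 0 = 0`. -/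
theorem del_bound {δ : ℂ → ℂ} {r : ℝ} (hδ : DifferentiableOn ℂ δ (ball 0 r))
    (h0 : δ 0 = 0) (hne : ∀ w ∈ ball (0 : ℂ) r, w ≠ 0 → sin (δ w) ≠ 0) {w : ℂ}
    (hw : ‖w‖ ≤ r / 2) (hr : 0 < r) : ‖δ w‖ ≤ CD := by
  have hpi : (Real.pi : ℂ) ≠ 0 := by exact_mod_cast Real.pi_ne_zero
  have hs : ∀ w ∈ ball (0 : ℂ) r, δ w ≠ Real.pi ∧ δ w ≠ -Real.pi := by
    intro w hw
    rcases eq_or_ne w 0 with rfl | hw0
    · rw [h0]; exact ⟨hpi.symm, (neg_ne_zero.mpr hpi).symm⟩
    · exact ⟨fun h => hne w hw hw0 (by rw [h, Complex.sin_pi]),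
        fun h => hne w hw hw0 (by rw [h, Complex.sin_neg, Complex.sin_pi, neg_zero])⟩
  have hd : DifferentiableOn ℂ (fun z => (δ z / Real.pi + 1) / 2) (ball 0 r) :=
    ((hδ.div_const _).add_const 1).div_const 2
  have := schottky (f := fun z => (δ z / Real.pi + 1) / 2) (c := 0) (R := r) (ρ := r / 2) (a := 1)
    hd (fun z hz h => (hs z hz).2 (by field_simp at h; linear_combination h))
    (fun z hz h => (hs z hz).1 (by field_simp at h; linear_combination h)) (by linarith)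
    (by simp only [h0]; norm_num) (z := w) (by simpa using hw)
  rw [show r / 2 / r = 1 / 2 by field_simp] at this
  have h2 : δ w = Real.pi * (2 * ((δ w / Real.pi + 1) / 2) - 1) := by field_simp; ring
  rw [h2, norm_mul]
  unfold CD
  have h3 : ‖(Real.pi : ℂ)‖ = Real.pi := by simp [abs_of_pos Real.pi_pos]
  rw [h3]
  apply mul_le_mul_of_nonneg_left _ Real.pi_pos.le
  calc ‖2 * ((δ w / Real.pi + 1) / 2) - 1‖ ≤ ‖2 * ((δ w / Real.pi + 1) / 2)‖ + ‖(1 : ℂ)‖ :=
        norm_sub_le _ _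
    _ = 2 * ‖(δ w / Real.pi + 1) / 2‖ + 1 := by rw [norm_mul]; simp
    _ ≤ _ := by linarith

/-- Radius bound: `|δ'(0)| ≤ 2 CD / r`. -/
theorem deriv_del_bound {δ : ℂ → ℂ} {r : ℝ} (hδ : DifferentiableOn ℂ δ (ball 0 r))
    (h0 : δ 0 = 0) (hne : ∀ w ∈ ball (0 : ℂ) r, w ≠ 0 → sin (δ w) ≠ 0) (hr : 0 < r) :
    ‖deriv δ 0‖ ≤ 2 * CD / r := by
  have hd : DiffContOnCl ℂ δ (ball 0 (r / 2)) :=
    (hδ.mono (closedBall_subset_ball (by linarith))).diffContOnCl_ball Subset.rfl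
  have := Complex.norm_deriv_le_of_forall_mem_sphere_norm_le (by positivity) hd
    (fun z hz => del_bound hδ h0 hne (by simpa using (mem_sphere_zero_iff_norm.mp hz).le) hr)
  refine this.trans (le_of_eq ?_)
  field_simp

/-- Logarithmic form: `δ w = w exp (u w)` with `u` controlled by `log (4 CD / (r |δ'(0)|))`. -/
theorem exists_log_del {δ : ℂ → ℂ} {r : ℝ} (hδ : DifferentiableOn ℂ δ (ball 0 r))
    (h0 : δ 0 = 0) (hne : ∀ w ∈ ball (0 : ℂ) r, w ≠ 0 → sin (δ w) ≠ 0) (hr : 0 < r)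
    (hd0 : deriv δ 0 ≠ 0) :
    ∃ u : ℂ → ℂ, DifferentiableOn ℂ u (ball 0 r) ∧ exp (u 0) = deriv δ 0 ∧
      (∀ w ∈ ball (0 : ℂ) r, δ w = w * exp (u w)) ∧
      (∀ w : ℂ, ‖w‖ ≤ r / 4 → ‖u w - u 0‖ ≤ 2 * Real.log (4 * CD / (r * ‖deriv δ 0‖))) := by
  have hmem0 : (0 : ℂ) ∈ ball (0 : ℂ) r := mem_ball_self hr
  set h : ℂ → ℂ := dslope δ 0 with hh
  have hhd : DifferentiableOn ℂ h (ball 0 r) :=
    (Complex.differentiableOn_dslope (isOpen_ball.mem_nhds hmem0)).mpr hδ
  have hh0 : h 0 = deriv δ 0 := dslope_same _ _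
  have hhw : ∀ w, δ w = w * h w := by
    intro w
    have := sub_smul_dslope δ 0 w
    rw [sub_zero, h0, sub_zero, smul_eq_mul] at this
    exact this.symm
  have hhne : ∀ w ∈ ball (0 : ℂ) r, h w ≠ 0 := by
    intro w hw hcon
    rcases eq_or_ne w 0 with rfl | hw0
    · rw [hh0] at hcon; exact hd0 hcon
    · apply hne w hw hw0
      rw [hhw w, hcon, mul_zero, Complex.sin_zero]
  obtain ⟨u, hu, hu0, huh⟩ := H699.exists_log hr hhd hhne (a := Complex.log (h 0))
    (Complex.exp_log (hhne 0 hmem0))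
  have hexp0 : exp (u 0) = deriv δ 0 := by rw [huh 0 hmem0, hh0]
  refine ⟨u, hu, hexp0, fun w hw => by rw [huh w hw]; exact hhw w, ?_⟩
  -- bound for h
  have hhb : ∀ w ∈ ball (0 : ℂ) (r / 2), ‖h w‖ ≤ 2 * CD / r := by
    intro w hw
    have hdc : DiffContOnCl ℂ h (ball 0 (r / 2)) :=
      (hhd.mono (closedBall_subset_ball (by linarith))).diffContOnCl_ball Subset.rfl
    refine Complex.norm_le_of_forall_mem_frontier_norm_le isBounded_ball hdc ?_
      (subset_closure hw)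
    intro y hy
    rw [frontier_ball (0 : ℂ) (by positivity), mem_sphere_zero_iff_norm] at hy
    have h1 := del_bound hδ h0 hne (w := y) (by rw [hy]) hr
    rw [hhw y, norm_mul, hy] at h1
    rw [le_div_iff₀ hr]
    linarith
  have hCD := CD_pos
  have hdpos : 0 < ‖deriv δ 0‖ := norm_pos_iff.mpr hd0
  have hre : ∀ y ∈ ball (0 : ℂ) (r / 2), (u y).re ≤ Real.log (2 * CD / r) := by
    intro y hy
    have hy' : y ∈ ball (0 : ℂ) r := ball_subset_ball (by linarith) hy
    have h1 := hhb y hy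
    rw [← huh y hy', Complex.norm_exp] at h1
    exact (Real.le_log_iff_exp_le (by positivity)).mpr h1
  have hre0 : (u 0).re = Real.log ‖deriv δ 0‖ := by
    rw [← hexp0, Complex.norm_exp, Real.log_exp]
  set M : ℝ := Real.log (4 * CD / (r * ‖deriv δ 0‖)) with hM
  have hMeq : M = Real.log (2 * CD / r) + Real.log 2 - (u 0).re := by
    rw [hM, hre0, show 4 * CD / (r * ‖deriv δ 0‖) = 2 * CD / r * 2 / ‖deriv δ 0‖ by
      field_simp; ring, Real.log_div (by positivity) hdpos.ne', Real.log_mul (by positivity)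
      (by norm_num)]
  have hlog2 : 0 < Real.log 2 := Real.log_pos (by norm_num)
  have hMpos : 0 < M := by
    have := hre 0 (mem_ball_self (by positivity))
    rw [hMeq]; linarith
  intro w hw
  have hwb : w ∈ ball (0 : ℂ) (r / 2) := by rw [mem_ball_zero_iff]; linarith
  have hb := borel (u := u) (c := 0) (R := r / 2) hMpos
    (hu.mono (ball_subset_ball (by linarith))) (fun y hy => by
      rw [sub_re]; have := hre y hy; linarith) hwb
  rw [sub_zero] at hb
  refine hb.trans ?_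
  rw [div_le_iff₀ (by linarith)]
  nlinarith

end Vale.Agent.P097.H699
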